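import Mathlib

namespace Vale.Agent.P096

universe u

noncomputable def kkDist {K : Type u} [NormedAddCommGroup K] [InnerProductSpace ℂ K]
    [CompleteSpace K] (M N : VonNeumannAlgebra K) : ℝ :=
  Metric.hausdorffDist ((M : Set (K →L[ℂ] K)) ∩ Metric.closedBall 0 1)
    ((N : Set (K →L[ℂ] K)) ∩ Metric.closedBall 0 1)

def CloseConj {K : Type u} [NormedAddCommGroup K] [InnerProductSpace ℂ K] [CompleteSpace K]
    (M N : VonNeumannAlgebra K) (ε : ℝ) : Prop :=
  ∃ u ∈ unitary (K →L[ℂ] K),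
    (fun x => u * x * star u) '' (M : Set (K →L[ℂ] K)) = (N : Set (K →L[ℂ] K)) ∧ ‖u - 1‖ < ε

end Vale.Agent.P096
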