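import Mathlib

namespace Vale.Agent.P096

universe u

open scoped ENNReal InnerProductSpace

variable {H : ℕ → Type u} [∀ n, NormedAddCommGroup (H n)] [∀ n, InnerProductSpace ℂ (H n)]
  [∀ n, CompleteSpace (H n)]

noncomputable def inc (H : ℕ → Type u) [∀ n, NormedAddCommGroup (H n)]
    [∀ n, InnerProductSpace ℂ (H n)] (k : ℕ) : H k →L[ℂ] lp H 2 :=
  lp.singleContinuousLinearMap ℂ H 2 k

noncomputable def ev (H : ℕ → Type u) [∀ n, NormedAddCommGroup (H n)]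
    [∀ n, InnerProductSpace ℂ (H n)] (k : ℕ) : lp H 2 →L[ℂ] H k :=
  lp.evalCLM ℂ H 2 k

omit [∀ n, CompleteSpace (H n)] in
@[simp] theorem inc_apply (k : ℕ) (y : H k) : inc H k y = lp.single 2 k y := rfl

omit [∀ n, CompleteSpace (H n)] in
@[simp] theorem ev_apply (k : ℕ) (f : lp H 2) : ev H k f = f k := rfl

omit [∀ n, CompleteSpace (H n)] in
theorem ev_comp_inc (k : ℕ) : (ev H k).comp (inc H k) = ContinuousLinearMap.id ℂ (H k) := by
  ext y
  simp

omit [∀ n, CompleteSpace (H n)] in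
theorem norm_inc_le (k : ℕ) : ‖inc H k‖ ≤ 1 := by
  refine ContinuousLinearMap.opNorm_le_bound _ zero_le_one fun y => ?_
  rw [inc_apply, lp.norm_single (by norm_num), one_mul]

omit [∀ n, CompleteSpace (H n)] in
theorem norm_ev_le (k : ℕ) : ‖ev H k‖ ≤ 1 := by
  refine ContinuousLinearMap.opNorm_le_bound _ zero_le_one fun f => ?_
  rw [ev_apply, one_mul]
  exact lp.norm_apply_le_norm (by norm_num) f k

theorem adjoint_inc (k : ℕ) : ContinuousLinearMap.adjoint (inc H k) = ev H k := by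
  symm
  rw [ContinuousLinearMap.eq_adjoint_iff]
  intro f y
  rw [ev_apply, inc_apply, lp.inner_single_right]

theorem adjoint_ev (k : ℕ) : ContinuousLinearMap.adjoint (ev H k) = inc H k := by
  rw [← adjoint_inc, ContinuousLinearMap.adjoint_adjoint]

omit [∀ n, CompleteSpace (H n)] in
theorem norm_le_of_diag (T : lp H 2 →L[ℂ] lp H 2) (c : ∀ n, H n →L[ℂ] H n) (r : ℝ) (hr : 0 ≤ r)
    (hT : ∀ f n, (T f) n = c n (f n)) (hc : ∀ n, ‖c n‖ ≤ r) : ‖T‖ ≤ r := by
  refine ContinuousLinearMap.opNorm_le_bound _ hr fun f => ?_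
  have h1 : ‖T f‖ ≤ ‖((r : ℂ) • f : lp H 2)‖ := by
    refine lp.norm_mono (by norm_num) fun n => ?_
    rw [hT, lp.coeFn_smul, Pi.smul_apply, norm_smul]
    calc ‖c n (f n)‖ ≤ ‖c n‖ * ‖f n‖ := (c n).le_opNorm _
      _ ≤ r * ‖f n‖ := by gcongr; exact hc n
      _ = ‖(r : ℂ)‖ * ‖f n‖ := by simp [abs_of_nonneg hr]
  rw [norm_smul] at h1
  simpa [abs_of_nonneg hr] using h1

omit [∀ n, CompleteSpace (H n)] in
theorem exists_diag (c : ∀ n, H n →L[ℂ] H n) (r : ℝ) (hr : 0 ≤ r) (hc : ∀ n, ‖c n‖ ≤ r) :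
    ∃ T : lp H 2 →L[ℂ] lp H 2, (∀ f n, (T f) n = c n (f n)) ∧ ‖T‖ ≤ r := by
  have hmem : ∀ f : lp H 2, Memℓp (fun n => c n (f n)) 2 := by
    intro f
    refine (lp.memℓp ((r : ℂ) • f : lp H 2)).mono' fun n => ?_
    rw [lp.coeFn_smul, Pi.smul_apply, norm_smul]
    calc ‖c n (f n)‖ ≤ ‖c n‖ * ‖f n‖ := (c n).le_opNorm _
      _ ≤ r * ‖f n‖ := by gcongr; exact hc n
      _ = ‖(r : ℂ)‖ * ‖f n‖ := by simp [abs_of_nonneg hr]
  let L : lp H 2 →ₗ[ℂ] lp H 2 :=
    { toFun := fun f => ⟨fun n => c n (f n), hmem f⟩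
      map_add' := by
        intro f g
        apply lp.ext
        funext n
        simp
        rfl
      map_smul' := by
        intro a f
        apply lp.ext
        funext n
        simp }
  have hb : ∀ f, ‖L f‖ ≤ r * ‖f‖ := by
    intro f
    have h1 : ‖L f‖ ≤ ‖((r : ℂ) • f : lp H 2)‖ := by
      refine lp.norm_mono (by norm_num) fun n => ?_
      rw [lp.coeFn_smul, Pi.smul_apply, norm_smul]
      calc ‖c n (f n)‖ ≤ ‖c n‖ * ‖f n‖ := (c n).le_opNorm _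
        _ ≤ r * ‖f n‖ := by gcongr; exact hc n
        _ = ‖(r : ℂ)‖ * ‖f n‖ := by simp [abs_of_nonneg hr]
    rw [norm_smul] at h1
    simpa [abs_of_nonneg hr] using h1
  refine ⟨L.mkContinuous r hb, fun f n => rfl, ?_⟩
  exact LinearMap.mkContinuous_norm_le _ hr _

end Vale.Agent.P096
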