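import Mathlib
import Vale.Agent.P096.DirectSum

namespace Vale.Agent.P096

universe u

open scoped ENNReal InnerProductSpace

variable {H : ℕ → Type u} [∀ n, NormedAddCommGroup (H n)] [∀ n, InnerProductSpace ℂ (H n)]
  [∀ n, CompleteSpace (H n)]

theorem apply_single_of_diag (T : lp H 2 →L[ℂ] lp H 2) (c : ∀ n, H n →L[ℂ] H n)
    (hT : ∀ f n, (T f) n = c n (f n)) (k : ℕ) (y : H k) :
    T (lp.single 2 k y) = lp.single 2 k (c k y) := by
  apply lp.ext
  funext m
  rw [hT]
  by_cases h : m = k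
  · subst h
    simp
  · rw [lp.single_apply_ne _ _ _ h, lp.single_apply_ne _ _ _ h, map_zero]

theorem star_diag (T : lp H 2 →L[ℂ] lp H 2) (c : ∀ n, H n →L[ℂ] H n)
    (hT : ∀ f n, (T f) n = c n (f n)) (f : lp H 2) (n : ℕ) :
    ((star T) f) n = (star (c n)) (f n) := by
  apply ext_inner_right ℂ
  intro y
  rw [← lp.inner_single_right, ContinuousLinearMap.star_eq_adjoint,
    ContinuousLinearMap.adjoint_inner_left, apply_single_of_diag T c hT,
    lp.inner_single_right, ContinuousLinearMap.star_eq_adjoint,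
    ContinuousLinearMap.adjoint_inner_left]

noncomputable def dsumS (A : ∀ n, VonNeumannAlgebra (H n)) :
    StarSubalgebra ℂ (lp H 2 →L[ℂ] lp H 2) where
  carrier := {T | ∀ n, ∃ a ∈ A n, ∀ f : lp H 2, (T f) n = a (f n)}
  mul_mem' := by
    intro S T hS hT n
    obtain ⟨a, ha, hSa⟩ := hS n
    obtain ⟨b, hb, hTb⟩ := hT n
    refine ⟨a * b, mul_mem ha hb, fun f => ?_⟩
    rw [ContinuousLinearMap.mul_apply, hSa, hTb, ContinuousLinearMap.mul_apply]
  one_mem' := by
    intro n
    exact ⟨1, one_mem _, fun f => rfl⟩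
  add_mem' := by
    intro S T hS hT n
    obtain ⟨a, ha, hSa⟩ := hS n
    obtain ⟨b, hb, hTb⟩ := hT n
    refine ⟨a + b, add_mem ha hb, fun f => ?_⟩
    rw [ContinuousLinearMap.add_apply, lp.coeFn_add, Pi.add_apply, hSa, hTb,
      ContinuousLinearMap.add_apply]
  zero_mem' := by
    intro n
    exact ⟨0, zero_mem _, fun f => rfl⟩
  algebraMap_mem' := by
    intro r n
    refine ⟨algebraMap ℂ _ r, (A n).algebraMap_mem' r, fun f => ?_⟩
    rw [Algebra.algebraMap_eq_smul_one, Algebra.algebraMap_eq_smul_one]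
    rfl
  star_mem' := by
    intro T hT n
    choose c hc hTc using hT
    exact ⟨star (c n), star_mem (hc n), fun f => star_diag T c (fun f n => hTc n f) f n⟩

theorem mem_dsumS {A : ∀ n, VonNeumannAlgebra (H n)} {T : lp H 2 →L[ℂ] lp H 2} :
    T ∈ dsumS A ↔ ∀ n, ∃ a ∈ A n, ∀ f : lp H 2, (T f) n = a (f n) := Iff.rfl

noncomputable def blk (k : ℕ) (a : H k →L[ℂ] H k) : lp H 2 →L[ℂ] lp H 2 :=
  (inc H k).comp (a.comp (ev H k))

theorem blk_apply (k : ℕ) (a : H k →L[ℂ] H k) (f : lp H 2) :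
    blk k a f = lp.single 2 k (a (f k)) := rfl

theorem blk_mem (A : ∀ n, VonNeumannAlgebra (H n)) (k : ℕ) (a : H k →L[ℂ] H k) (ha : a ∈ A k) :
    blk k a ∈ dsumS A := by
  intro n
  by_cases h : n = k
  · subst h
    exact ⟨a, ha, fun f => by rw [blk_apply, lp.single_apply_self]⟩
  · exact ⟨0, zero_mem _, fun f => by
      rw [blk_apply, lp.single_apply_ne _ _ _ h, ContinuousLinearMap.zero_apply]⟩

theorem comp_mem (A : ∀ n, VonNeumannAlgebra (H n)) (T : lp H 2 →L[ℂ] lp H 2)
    (hT : T ∈ dsumS A) (k : ℕ) : (ev H k).comp (T.comp (inc H k)) ∈ A k := by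
  obtain ⟨a, ha, hTa⟩ := hT k
  have : (ev H k).comp (T.comp (inc H k)) = a := by
    ext y
    simp [hTa]
  rw [this]
  exact ha

theorem centralizer_dsumS (A : ∀ n, VonNeumannAlgebra (H n)) :
    Set.centralizer (dsumS A : Set (lp H 2 →L[ℂ] lp H 2)) =
      (dsumS (fun n => (A n).commutant) : Set (lp H 2 →L[ℂ] lp H 2)) := by
  ext T
  rw [Set.mem_centralizer_iff]
  constructor
  · intro hT n
    refine ⟨(ev H n).comp (T.comp (inc H n)), ?_, ?_⟩
    · rw [VonNeumannAlgebra.mem_commutant_iff]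
      intro a ha
      have h1 := hT (blk n a) (blk_mem A n a ha)
      ext y
      have h2 := congrArg (fun S : lp H 2 →L[ℂ] lp H 2 => (S (lp.single 2 n y)) n) h1
      simp only [ContinuousLinearMap.mul_apply, blk_apply, lp.single_apply_self] at h2
      simpa using h2
    · intro f
      have h1 := hT (blk n 1) (blk_mem A n 1 (one_mem _))
      have h2 := congrArg (fun S : lp H 2 →L[ℂ] lp H 2 => (S f) n) h1
      simp only [ContinuousLinearMap.mul_apply, blk_apply, lp.single_apply_self,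
        ContinuousLinearMap.one_apply] at h2
      simpa using h2
  · intro hT X hX
    ext1 f
    apply lp.ext
    funext n
    obtain ⟨t, ht, hTt⟩ := hT n
    obtain ⟨x, hx, hXx⟩ := hX n
    rw [ContinuousLinearMap.mul_apply, ContinuousLinearMap.mul_apply, hXx, hTt, hTt, hXx]
    rw [VonNeumannAlgebra.mem_commutant_iff] at ht
    exact congrArg (fun S : H n →L[ℂ] H n => S (f n)) (ht x hx)

noncomputable def dsum (A : ∀ n, VonNeumannAlgebra (H n)) : VonNeumannAlgebra (lp H 2) where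
  toStarSubalgebra := dsumS A
  centralizer_centralizer' := by
    have h1 := centralizer_dsumS A
    have h2 := centralizer_dsumS (fun n => (A n).commutant)
    simp only [VonNeumannAlgebra.commutant_commutant] at h2
    change Set.centralizer (Set.centralizer (dsumS A : Set (lp H 2 →L[ℂ] lp H 2))) = _
    rw [h1, h2]
    rfl

theorem mem_dsum {A : ∀ n, VonNeumannAlgebra (H n)} {T : lp H 2 →L[ℂ] lp H 2} :
    T ∈ dsum A ↔ ∀ n, ∃ a ∈ A n, ∀ f : lp H 2, (T f) n = a (f n) := Iff.rfl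

theorem blk_commute (A : ∀ n, VonNeumannAlgebra (H n)) (k : ℕ) (T : lp H 2 →L[ℂ] lp H 2)
    (hT : T ∈ dsum A) : T * blk k 1 = blk k 1 * T := by
  have h : blk k (1 : H k →L[ℂ] H k) ∈
      (dsumS (fun n => (A n).commutant) : Set (lp H 2 →L[ℂ] lp H 2)) :=
    blk_mem _ k 1 (one_mem _)
  rw [← centralizer_dsumS, Set.mem_centralizer_iff] at h
  exact h T hT

end Vale.Agent.P096
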