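import Mathlib
import Vale.Agent.P096.Dsum
import Vale.Agent.P096.Defs

namespace Vale.Agent.P096

universe u

open scoped ENNReal InnerProductSpace

section general

variable {K : Type u} [NormedAddCommGroup K] [InnerProductSpace ℂ K] [CompleteSpace K]

theorem ball_nonempty (M : VonNeumannAlgebra K) :
    ((M : Set (K →L[ℂ] K)) ∩ Metric.closedBall 0 1).Nonempty :=
  ⟨0, zero_mem M, by simp⟩

theorem ball_bounded (M : VonNeumannAlgebra K) :
    Bornology.IsBounded ((M : Set (K →L[ℂ] K)) ∩ Metric.closedBall 0 1) :=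
  Metric.isBounded_closedBall.subset Set.inter_subset_right

theorem kk_approx {M N : VonNeumannAlgebra K} {r : ℝ} (h : kkDist M N < r)
    (x : K →L[ℂ] K) (hx : x ∈ M) (hx1 : ‖x‖ ≤ 1) : ∃ y ∈ N, ‖y‖ ≤ 1 ∧ ‖x - y‖ ≤ r := by
  obtain ⟨y, hy, hxy⟩ := Metric.exists_dist_lt_of_hausdorffDist_lt
    (x := x) (s := (M : Set (K →L[ℂ] K)) ∩ Metric.closedBall 0 1) ⟨hx, by simpa using hx1⟩ h
    (Metric.hausdorffEDist_ne_top_of_nonempty_of_bounded (ball_nonempty M) (ball_nonempty N)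
      (ball_bounded M) (ball_bounded N))
  exact ⟨y, hy.1, by simpa using hy.2, by rw [← dist_eq_norm]; exact hxy.le⟩

theorem kkDist_comm (M N : VonNeumannAlgebra K) : kkDist M N = kkDist N M :=
  Metric.hausdorffDist_comm

theorem kk_le {M N : VonNeumannAlgebra K} {r : ℝ} (hr : 0 ≤ r)
    (h1 : ∀ x ∈ M, ‖x‖ ≤ 1 → ∃ y ∈ N, ‖y‖ ≤ 1 ∧ ‖x - y‖ ≤ r)
    (h2 : ∀ x ∈ N, ‖x‖ ≤ 1 → ∃ y ∈ M, ‖y‖ ≤ 1 ∧ ‖x - y‖ ≤ r) : kkDist M N ≤ r := by
  refine Metric.hausdorffDist_le_of_mem_dist hr ?_ ?_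
  · rintro x ⟨hx, hx1⟩
    obtain ⟨y, hy, hy1, hxy⟩ := h1 x hx (by simpa using hx1)
    exact ⟨y, ⟨hy, by simpa using hy1⟩, by rw [dist_eq_norm]; exact hxy⟩
  · rintro x ⟨hx, hx1⟩
    obtain ⟨y, hy, hy1, hxy⟩ := h2 x hx (by simpa using hx1)
    exact ⟨y, ⟨hy, by simpa using hy1⟩, by rw [dist_eq_norm]; exact hxy⟩

theorem proj_eq_of_commute {p q : K →L[ℂ] K} (hp : IsSelfAdjoint p) (hq : IsSelfAdjoint q)
    (hp2 : p * p = p) (hq2 : q * q = q) (hc : p * q = q * p) (hlt : ‖p - q‖ < 1) : p = q := by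
  set d := p - q with hd
  have hds : star d = d := by
    rw [hd, star_sub, hp.star_eq, hq.star_eq]
  have hd2 : d * d = p + q - 2 • (p * q) := by
    rw [hd]
    simp only [sub_mul, mul_sub, hp2, hq2, ← hc]
    abel
  have hpqp : p * q * p = p * q := by rw [mul_assoc, ← hc, ← mul_assoc, hp2]
  have hpqq : p * q * q = p * q := by rw [mul_assoc, hq2]
  have hd3 : d * d * d = d := by
    rw [hd2, hd]
    simp only [sub_mul, mul_sub, add_mul, smul_mul_assoc, hp2, hq2, ← hc, hpqp, hpqq]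
    abel
  have hd4 : (d * d) * (d * d) = d * d := by rw [← mul_assoc, hd3]
  have h1 : ‖d * d‖ = ‖d‖ * ‖d‖ := by
    have := CStarRing.norm_star_mul_self (x := d)
    rwa [hds] at this
  have h2 : ‖d * d‖ = ‖d * d‖ * ‖d * d‖ := by
    have := CStarRing.norm_star_mul_self (x := d * d)
    rw [star_mul, hds, hd4] at this
    exact this
  have h3 : ‖d * d‖ < 1 := by
    rw [h1]
    nlinarith [norm_nonneg d]
  have h4 : ‖d * d‖ = 0 := by
    by_contra hne
    have hpos : 0 < ‖d * d‖ := lt_of_le_of_ne (norm_nonneg _) (Ne.symm hne)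
    nlinarith
  have h5 : ‖d‖ = 0 := by
    rw [h1] at h4
    exact mul_self_eq_zero.mp h4
  exact sub_eq_zero.mp (norm_eq_zero.mp h5)

end general

end Vale.Agent.P096

namespace Vale.Agent.P096

universe u

open scoped ENNReal InnerProductSpace

theorem norm_unitary_le {K : Type u} [NormedAddCommGroup K] [InnerProductSpace ℂ K]
    [CompleteSpace K] {u : K →L[ℂ] K} (hu : u ∈ unitary (K →L[ℂ] K)) : ‖u‖ ≤ 1 := by
  have h1 : ‖u‖ * ‖u‖ = ‖(1 : K →L[ℂ] K)‖ := by
    rw [← CStarRing.norm_star_mul_self, (Unitary.mem_iff.mp hu).1]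
  have h2 : ‖(1 : K →L[ℂ] K)‖ ≤ 1 := ContinuousLinearMap.norm_id_le
  nlinarith [norm_nonneg u]

section restrict

variable {H : ℕ → Type u} [∀ n, NormedAddCommGroup (H n)] [∀ n, InnerProductSpace ℂ (H n)]
  [∀ n, CompleteSpace (H n)]

noncomputable def cmp (k : ℕ) (T : lp H 2 →L[ℂ] lp H 2) : H k →L[ℂ] H k :=
  (ev H k).comp (T.comp (inc H k))

theorem cmp_blk (k : ℕ) (S T : lp H 2 →L[ℂ] lp H 2) (a : H k →L[ℂ] H k) :
    cmp k (S * blk k a * T) = cmp k S * a * cmp k T := by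
  ext y
  rfl

theorem cmp_blk_self (k : ℕ) (a : H k →L[ℂ] H k) : cmp k (blk k a) = a := by
  ext y
  simp [cmp, blk]

theorem cmp_one (k : ℕ) : cmp k (1 : lp H 2 →L[ℂ] lp H 2) = 1 := by
  ext y
  simp [cmp]

theorem cmp_sub (k : ℕ) (S T : lp H 2 →L[ℂ] lp H 2) : cmp k (S - T) = cmp k S - cmp k T := by
  ext y
  simp [cmp]

theorem norm_cmp_le (k : ℕ) (T : lp H 2 →L[ℂ] lp H 2) : ‖cmp k T‖ ≤ ‖T‖ := by
  calc ‖cmp k T‖ ≤ ‖ev H k‖ * ‖T.comp (inc H k)‖ := ContinuousLinearMap.opNorm_comp_le _ _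
    _ ≤ ‖ev H k‖ * (‖T‖ * ‖inc H k‖) := by
        gcongr
        exact ContinuousLinearMap.opNorm_comp_le _ _
    _ ≤ 1 * (‖T‖ * 1) := by
        gcongr
        · exact norm_ev_le k
        · exact norm_inc_le k
    _ = ‖T‖ := by ring

theorem star_cmp (k : ℕ) (T : lp H 2 →L[ℂ] lp H 2) : star (cmp k T) = cmp k (star T) := by
  rw [ContinuousLinearMap.star_eq_adjoint, cmp, ContinuousLinearMap.adjoint_comp,
    ContinuousLinearMap.adjoint_comp, adjoint_ev, adjoint_inc, cmp,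
    ContinuousLinearMap.star_eq_adjoint]
  rfl

theorem star_blk (k : ℕ) (a : H k →L[ℂ] H k) : star (blk k a) = blk k (star a) := by
  rw [ContinuousLinearMap.star_eq_adjoint, blk, ContinuousLinearMap.adjoint_comp,
    ContinuousLinearMap.adjoint_comp, adjoint_ev, adjoint_inc, blk,
    ContinuousLinearMap.star_eq_adjoint]
  rfl

theorem blk_mul_blk (k : ℕ) (a b : H k →L[ℂ] H k) : blk k a * blk k b = blk k (a * b) := by
  ext1 f
  simp [blk_apply]

theorem norm_blk_le (k : ℕ) (a : H k →L[ℂ] H k) : ‖blk k a‖ ≤ ‖a‖ := by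
  calc ‖blk k a‖ ≤ ‖inc H k‖ * ‖a.comp (ev H k)‖ := ContinuousLinearMap.opNorm_comp_le _ _
    _ ≤ ‖inc H k‖ * (‖a‖ * ‖ev H k‖) := by
        gcongr
        exact ContinuousLinearMap.opNorm_comp_le _ _
    _ ≤ 1 * (‖a‖ * 1) := by
        gcongr
        · exact norm_inc_le k
        · exact norm_ev_le k
    _ = ‖a‖ := by ring

theorem restrict (A B : ∀ n, VonNeumannAlgebra (H n)) (k : ℕ) (ε : ℝ) (hε : ε ≤ 1 / 2)
    (h : CloseConj (dsum A) (dsum B) ε) : CloseConj (A k) (B k) ε := by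
  obtain ⟨u, hu, hconj, hnorm⟩ := h
  have huu : star u * u = 1 := (Unitary.mem_iff.mp hu).1
  have huu' : u * star u = 1 := (Unitary.mem_iff.mp hu).2
  set E : lp H 2 →L[ℂ] lp H 2 := blk k 1 with hE
  have hEs : star E = E := by rw [hE, star_blk, star_one]
  have hE2 : E * E = E := by rw [hE, blk_mul_blk, one_mul]
  have hE1 : ‖E‖ ≤ 1 := (norm_blk_le k 1).trans ContinuousLinearMap.norm_id_le
  have hmapsto : ∀ X ∈ dsum A, u * X * star u ∈ dsum B := by
    intro X hX
    have : u * X * star u ∈ (fun x => u * x * star u) '' (dsum A : Set (lp H 2 →L[ℂ] lp H 2)) :=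
      ⟨X, hX, rfl⟩
    rw [hconj] at this
    exact this
  have hq : u * E * star u ∈ dsum B := hmapsto E (blk_mem A k 1 (one_mem _))
  have hqE : u * E * star u = E := by
    apply proj_eq_of_commute
    · rw [IsSelfAdjoint, star_mul, star_mul, star_star, hEs, mul_assoc]
    · exact hEs
    · calc u * E * star u * (u * E * star u) = u * E * (star u * u) * E * star u := by
            simp only [mul_assoc]
        _ = u * E * star u := by rw [huu, mul_one, mul_assoc u E E, hE2]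
    · exact hE2
    · exact blk_commute B k _ hq
    · have hdecomp : u * E * star u - E = (u - 1) * E * star u + E * star (u - 1) := by
        rw [star_sub, star_one]
        simp only [sub_mul, mul_sub, one_mul, mul_one]
        abel
      rw [hdecomp]
      have h1 : ‖(u - 1) * E * star u‖ ≤ ‖u - 1‖ := by
        calc ‖(u - 1) * E * star u‖ ≤ ‖(u - 1) * E‖ * ‖star u‖ := norm_mul_le _ _
          _ ≤ (‖u - 1‖ * ‖E‖) * ‖star u‖ := by gcongr; exact norm_mul_le _ _
          _ ≤ (‖u - 1‖ * 1) * 1 := by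
              gcongr
              rw [norm_star]
              exact norm_unitary_le hu
          _ = ‖u - 1‖ := by ring
      have h2 : ‖E * star (u - 1)‖ ≤ ‖u - 1‖ := by
        calc ‖E * star (u - 1)‖ ≤ ‖E‖ * ‖star (u - 1)‖ := norm_mul_le _ _
          _ ≤ 1 * ‖u - 1‖ := by
              rw [norm_star]
              gcongr
          _ = ‖u - 1‖ := by ring
      calc ‖(u - 1) * E * star u + E * star (u - 1)‖
          ≤ ‖(u - 1) * E * star u‖ + ‖E * star (u - 1)‖ := norm_add_le _ _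
        _ ≤ ‖u - 1‖ + ‖u - 1‖ := add_le_add h1 h2
        _ < 1 := by linarith
  have hsE : star u * E * u = E := by
    calc star u * E * u = star u * (u * E * star u) * u := by rw [hqE]
      _ = (star u * u) * E * (star u * u) := by simp only [mul_assoc]
      _ = E := by rw [huu, one_mul, mul_one]
  set v := cmp k u with hv
  have hvs : star v = cmp k (star u) := star_cmp k u
  have hvw : v * star v = 1 := by
    rw [hvs, hv]
    have := cmp_blk k u (star u) 1
    rw [mul_one] at this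
    rw [← this, ← hE, hqE, hE, cmp_blk_self]
  have hwv : star v * v = 1 := by
    rw [hvs, hv]
    have := cmp_blk k (star u) u 1
    rw [mul_one] at this
    rw [← this, ← hE, hsE, hE, cmp_blk_self]
  refine ⟨v, Unitary.mem_iff.mpr ⟨hwv, hvw⟩, ?_, ?_⟩
  · ext y
    constructor
    · rintro ⟨x, hx, rfl⟩
      change v * x * star v ∈ B k
      rw [hvs, hv, ← cmp_blk]
      exact comp_mem B _ (hmapsto _ (blk_mem A k x hx)) k
    · intro hy
      have hY : blk k y ∈ (dsum B : Set (lp H 2 →L[ℂ] lp H 2)) := blk_mem B k y hy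
      rw [← hconj] at hY
      obtain ⟨X, hX, hXy⟩ := hY
      have hXeq : X = star u * blk k y * u := by
        rw [← hXy]
        calc X = (star u * u) * X * (star u * u) := by rw [huu, one_mul, mul_one]
          _ = star u * (u * X * star u) * u := by simp only [mul_assoc]
      refine ⟨cmp k X, comp_mem A X hX k, ?_⟩
      change v * cmp k X * star v = y
      rw [hXeq, cmp_blk, ← hvs, ← hv]
      calc v * (star v * y * v) * star v = (v * star v) * y * (v * star v) := by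
            simp only [mul_assoc]
        _ = y := by rw [hvw, one_mul, mul_one]
  · have : v - 1 = cmp k (u - 1) := by rw [cmp_sub, cmp_one]
    rw [this]
    exact lt_of_le_of_lt (norm_cmp_le k _) hnorm

theorem dsum_close (A B : ∀ n, VonNeumannAlgebra (H n)) (r : ℝ) (hr : 0 ≤ r)
    (h : ∀ n, ∀ x ∈ A n, ‖x‖ ≤ 1 → ∃ y ∈ B n, ‖y‖ ≤ 1 ∧ ‖x - y‖ ≤ r) :
    ∀ X ∈ dsum A, ‖X‖ ≤ 1 → ∃ Y ∈ dsum B, ‖Y‖ ≤ 1 ∧ ‖X - Y‖ ≤ r := by
  intro X hX hX1
  have hx : ∀ n, cmp n X ∈ A n := fun n => comp_mem A X hX n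
  have hx1 : ∀ n, ‖cmp n X‖ ≤ 1 := fun n => (norm_cmp_le n X).trans hX1
  choose y hy hy1 hxy using fun n => h n (cmp n X) (hx n) (hx1 n)
  obtain ⟨Y, hY, hYn⟩ := exists_diag y 1 zero_le_one hy1
  refine ⟨Y, fun n => ⟨y n, hy n, fun f => hY f n⟩, hYn, ?_⟩
  refine norm_le_of_diag (X - Y) (fun n => cmp n X - y n) r hr ?_ hxy
  intro f n
  obtain ⟨a, -, hXa⟩ := hX n
  have hcmp : cmp n X = a := by
    ext z
    simp [cmp, hXa]
  rw [hcmp]
  simp [hXa, hY]

end restrict

end Vale.Agent.P096
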