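import Mathlib
import Vale.Agent.P096.Equiv

namespace Vale.Agent.P096

universe u

open scoped ENNReal InnerProductSpace

structure Pair where
  K : Type u
  [i1 : NormedAddCommGroup K]
  [i2 : InnerProductSpace ℂ K]
  [i3 : CompleteSpace K]
  M : VonNeumannAlgebra K
  N : VonNeumannAlgebra K

attribute [instance] Pair.i1 Pair.i2 Pair.i3

theorem CloseConj.mono {K : Type u} [NormedAddCommGroup K] [InnerProductSpace ℂ K]
    [CompleteSpace K] {M N : VonNeumannAlgebra K} {ε ε' : ℝ} (h : CloseConj M N ε)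
    (hle : ε ≤ ε') : CloseConj M N ε' := by
  obtain ⟨u, hu, hc, hn⟩ := h
  exact ⟨u, hu, hc, lt_of_lt_of_le hn hle⟩

theorem uniform_of_pointwise
    (hP : ∀ (K : Type u) [NormedAddCommGroup K] [InnerProductSpace ℂ K] [CompleteSpace K]
      (M : VonNeumannAlgebra K), ∀ ε > 0, ∃ δ > 0, ∀ N : VonNeumannAlgebra K,
        kkDist M N < δ → CloseConj M N ε) :
    ∀ ε > 0, ∃ δ > 0, ∀ (K : Type u) [NormedAddCommGroup K] [InnerProductSpace ℂ K]
      [CompleteSpace K] (M N : VonNeumannAlgebra K), kkDist M N < δ → CloseConj M N ε := by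
  intro ε hε
  by_contra hcon
  have hbad : ∀ n : ℕ, ∃ P : Pair.{u}, kkDist P.M P.N < 1 / ((n : ℝ) + 1) ∧
      ¬ CloseConj P.M P.N ε := by
    intro n
    by_contra hn
    apply hcon
    refine ⟨1 / ((n : ℝ) + 1), by positivity, ?_⟩
    intro K _ _ _ M N hd
    by_contra hc
    exact hn ⟨⟨K, M, N⟩, hd, hc⟩
  choose P hP1 hP2 using hbad
  let A : ∀ n, VonNeumannAlgebra (P n).K := fun n => (P n).M
  let B : ℕ → ∀ n, VonNeumannAlgebra (P n).K := fun k n => if n < k then (P n).M else (P n).N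
  have hε' : 0 < min ε (1 / 2) := lt_min hε (by norm_num)
  obtain ⟨δ, hδ, hloc⟩ := hP (lp (fun n => (P n).K) 2) (dsum A) (min ε (1 / 2)) hε'
  obtain ⟨k, hk⟩ := exists_nat_one_div_lt hδ
  have hr : (0 : ℝ) ≤ 1 / ((k : ℝ) + 1) := by positivity
  have hmono : ∀ n, ¬ n < k → 1 / ((n : ℝ) + 1) ≤ 1 / ((k : ℝ) + 1) := by
    intro n hn
    have : (k : ℝ) ≤ n := by exact_mod_cast not_lt.mp hn
    apply one_div_le_one_div_of_le (by positivity)
    linarith
  have h1 : ∀ n, ∀ x ∈ A n, ‖x‖ ≤ 1 → ∃ y ∈ B k n, ‖y‖ ≤ 1 ∧ ‖x - y‖ ≤ 1 / ((k : ℝ) + 1) := by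
    intro n x hx hx1
    by_cases hn : n < k
    · refine ⟨x, ?_, hx1, by simpa using hr⟩
      simp only [B, if_pos hn]
      exact hx
    · obtain ⟨y, hy, hy1, hxy⟩ := kk_approx (hP1 n) x hx hx1
      refine ⟨y, ?_, hy1, hxy.trans (hmono n hn)⟩
      simp only [B, if_neg hn]
      exact hy
  have h2 : ∀ n, ∀ x ∈ B k n, ‖x‖ ≤ 1 → ∃ y ∈ A n, ‖y‖ ≤ 1 ∧ ‖x - y‖ ≤ 1 / ((k : ℝ) + 1) := by
    intro n x hx hx1
    by_cases hn : n < k
    · refine ⟨x, ?_, hx1, by simpa using hr⟩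
      simp only [B, if_pos hn] at hx
      exact hx
    · simp only [B, if_neg hn] at hx
      have hd : kkDist (P n).N (P n).M < 1 / ((n : ℝ) + 1) := by
        rw [kkDist_comm]
        exact hP1 n
      obtain ⟨y, hy, hy1, hxy⟩ := kk_approx hd x hx hx1
      exact ⟨y, hy, hy1, hxy.trans (hmono n hn)⟩
  have hd : kkDist (dsum A) (dsum (B k)) < δ :=
    lt_of_le_of_lt (kk_le hr (dsum_close A (B k) _ hr h1) (dsum_close (B k) A _ hr h2)) hk
  have hres := restrict A (B k) k (min ε (1 / 2)) (min_le_right _ _) (hloc _ hd)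
  have hBk : B k k = (P k).N := by simp [B]
  rw [hBk] at hres
  exact hP2 k (hres.mono (min_le_left _ _))

end Vale.Agent.P096
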